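import Mathlib
import Vale.Agent.Lib.P184.Main

/-!
# P184: the Hattori-Stallings trace of an idempotent matrix over `ℓ¹(G)` vanishes at every
conjugacy class whose character value varies along a continuous family of bounded
finite-dimensional representations

`e : Fin q → Fin q → G → ℂ` is a `q × q` matrix of absolutely summable functions on the group `G`
which is idempotent for the convolution matrix product.  `M t` (for real `t`) is a family of
`n`-dimensional matrix representations of `G` (`M t 1 = 1`, `M t (x * y) = M t x * M t y`) all of
whose matrix entries have absolute value at most one (for instance unitary representations), and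
`t ↦ M t g α β` is continuous for each group element and each entry.  If the trace of `M t g₀`
differs from the trace of `M 0 g₀` for some `t`, then the series
`∑_{g conjugate to g₀} ∑ i, e i i g` converges to `0`.
-/

open scoped BigOperators

namespace Vale.Agent.Results.P184.DeformationInvariance

theorem result {G : Type*} [Group G] (q n : ℕ) (e : Fin q → Fin q → G → ℂ)
    (hsum : ∀ i j, Summable (fun g => ‖e i j g‖))
    (hidem : ∀ i j g, ∑ k, ∑' h, e i k h * e k j (h⁻¹ * g) = e i j g)
    (M : ℝ → G → Matrix (Fin n) (Fin n) ℂ)
    (hM_one : ∀ t, M t 1 = 1) (hM_mul : ∀ t x y, M t (x * y) = M t x * M t y)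
    (hM_bd : ∀ t g α β, ‖M t g α β‖ ≤ 1)
    (hM_cont : ∀ g α β, Continuous fun t => M t g α β)
    (g₀ : G) (t : ℝ) (hne : (M t g₀).trace ≠ (M 0 g₀).trace) :
    HasSum (fun g : {g : G // IsConj g₀ g} => ∑ i, e i i g) 0 := by
  have hdef := Vale.Agent.Lib.P184.deform_concrete e hsum hidem M hM_one hM_mul hM_bd hM_cont g₀ t
  have hzero : ∑' g : {g : G // IsConj g₀ g}, ∑ i, e i i g = 0 := by
    have h1 : ((M t g₀).trace - (M 0 g₀).trace)
        * ∑' g : {g : G // IsConj g₀ g}, ∑ i, e i i g = 0 := by
      rw [sub_mul, hdef, sub_self]
    rcases mul_eq_zero.1 h1 with h | h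
    · exact absurd (sub_eq_zero.1 h) hne
    · exact h
  rw [← hzero]
  exact (Vale.Agent.Lib.P184.summable_class e hsum g₀).hasSum

end Vale.Agent.Results.P184.DeformationInvariance
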