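import Mathlib
import Vale.Agent.Lib.P184.Main

/-!
# P184: the Hattori-Stallings trace of an idempotent matrix over `ℓ¹(G)` vanishes at every
conjugacy class that is detected by a real character of a finite-index subgroup

`e : Fin q → Fin q → G → ℂ` is a `q × q` matrix of functions on the group `G`, each absolutely
summable (`hsum`), which is idempotent for the convolution matrix product (`hidem`):
`∑ k, ∑' h, e i k h * e k j (h⁻¹ * g) = e i j g`.  `H` is a subgroup of finite index,
`χ : H → ℝ` is additive on products (a homomorphism to the additive group of reals), and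
`g₀ ∈ H` has `χ g₀ ≠ 0`.  The conclusion says that the series
`∑_{g conjugate to g₀} ∑ i, e i i g` (the coefficient of the Hattori-Stallings trace of `e` at the
conjugacy class of `g₀`) converges to `0`.
-/

open scoped BigOperators

namespace Vale.Agent.Results.P184.FiniteIndexCharacter

theorem result {G : Type*} [Group G] (q : ℕ) (e : Fin q → Fin q → G → ℂ)
    (hsum : ∀ i j, Summable (fun g => ‖e i j g‖))
    (hidem : ∀ i j g, ∑ k, ∑' h, e i k h * e k j (h⁻¹ * g) = e i j g)
    (H : Subgroup G) [H.FiniteIndex] (χ : H → ℝ) (hχ : ∀ x y : H, χ (x * y) = χ x + χ y)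
    (g₀ : H) (hg₀ : χ g₀ ≠ 0) :
    HasSum (fun g : {g : G // IsConj (g₀ : G) g} => ∑ i, e i i g) 0 :=
  Vale.Agent.Lib.P184.vanish_of_finiteIndex_char e hsum hidem H χ hχ g₀ hg₀

end Vale.Agent.Results.P184.FiniteIndexCharacter
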